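import Vale.Agent.P298.H752.Top
import Vale.Agent.P298.H967.Ideal
import Vale.Agent.P298.H412.Defs

/-!
P298, top level (helper77, integrator): the outputs of the blocks as `Prop`s, on the common
definitions of `H379/Geo.lean`.
-/

namespace Vale.Agent.P298.Main

open Filter Topology Metric Set Module MeasureTheory Vale.Agent.P298
open Vale.Agent.P298.H379 (Q ev PFam InI KK S1R S1P2 OTP1 OTS)
open Vale.Agent.P298.H967 (IK)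
open Vale.Agent.P298.H752 (GoodFam)
open scoped ENNReal NNReal

/-- germ of a biholomorphic map of `(ℂ³, 0)` -/
structure Bih (ψ : (Fin 3 → ℂ) → (Fin 3 → ℂ)) : Prop where
  analytic : AnalyticAt ℂ ψ 0
  zero : ψ 0 = 0
  det : (fderiv ℂ ψ 0).det ≠ 0

/-- `f` is regular in `x₃` (otherwise `InI f` may see nothing of the surface `f = 0`) -/
def Reg3 (f : (Fin 3 → ℂ) → ℂ) : Prop := ∃ᶠ z in 𝓝 (0 : ℂ), f ![0, 0, z] ≠ 0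

/-- log canonical germ of surface (used only for germs with `Reg3`) -/
def LC (f : (Fin 3 → ℂ) → ℂ) : Prop :=
  ∀ h : (Fin 3 → ℂ) → ℂ, Hol h → h 0 = 0 → ∀ k : ℝ, 0 < k → InI f k h

/-- the 2-jet of `f` is zero (`f 0 = 0` and `df(0) = 0` are known) -/
def Corank3 (f : (Fin 3 → ℂ) → ℂ) : Prop := ∀ i j, pd i (pd j f) 0 = 0

/-- The output of block E1 for one germ: the pair `e, e'`. -/
structure E1Data (f : (Fin 3 → ℂ) → ℂ) (m A : ℕ) (e e' : (Fin 3 → ℂ) → ℂ) : Prop where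
  m_two : 2 ≤ m
  hol : Hol e
  hol' : Hol e'
  zero : e 0 = 0
  zero' : e' 0 = 0
  inI : ∀ k : ℝ, 0 < k → k < m → InI f k e
  inI' : ∀ k : ℝ, 0 < k → k < m → InI f k e'
  col : Colength ![f, e, e'] A
  jac : ∃ C : ℝ, ∀ᶠ x in 𝓝 (0 : Fin 3 → ℂ), f x = 0 →
    ‖jac3 f e e' x‖ ^ m ≤ C * (max ‖e x‖ ‖e' x‖) ^ (2 * m + 1)

/-- BLOCK E1 (868, 471, 400, 928, 416, 955, 707, 766, ...). -/
def E1Stmt : Prop := ∀ (f : (Fin 3 → ℂ) → ℂ) (μ : ℕ), Hol f → f 0 = 0 → Milnor f μ → Reg3 f →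
  ¬ LC f → ∃ (m A : ℕ) (e e' : (Fin 3 → ℂ) → ℂ), E1Data f m A e e'

/-- linear change of coordinates making `f_0` regular in `x₃` (401) -/
def RegStmt : Prop := ∀ (r : ℝ), 0 < r → ∀ F : (Fin 3 → ℂ) → ℂ → ℂ, IsHolFamily r F →
  ∀ μ : ℕ, (∀ t ∈ ball (0 : ℂ) r, Milnor (F · t) μ) →
  ∃ (r₁ : ℝ) (F₁ : (Fin 3 → ℂ) → ℂ → ℂ), 0 < r₁ ∧ IsHolFamily r₁ F₁ ∧
    (∀ t ∈ ball (0 : ℂ) r₁, Milnor (F₁ · t) μ) ∧ Reg3 (F₁ · 0) ∧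
    (TopRightTrivial r₁ F₁ → TopRightTrivial r F)

/-- BLOCK RED (752), with the biholomorphic germ at `t = 0`. -/
def TopStmt : Prop := ∀ (r : ℝ), 0 < r → ∀ F : (Fin 3 → ℂ) → ℂ → ℂ, IsHolFamily r F →
  ∀ μ : ℕ, (∀ t ∈ ball (0 : ℂ) r, Milnor (F · t) μ) →
  (∀ L : ℕ, ∃ d₁ : ℕ, ∀ d, d₁ ≤ d → ∀ (ε : ℝ) (P : PFam d ε ε),
    GoodFam μ L d ε (fun x t => P.f t x) →
    (∃ ψ, Bih ψ ∧ ∀ᶠ x in 𝓝 (0 : Fin 3 → ℂ), P.f 0 x = F (ψ x) 0) →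
    ∃ r', TopRightTrivial r' fun x t => P.f t x) → TopRightTrivial r F

/-- case `μ = 0` -/
def Mu0Stmt : Prop := ∀ (r : ℝ), 0 < r → ∀ F : (Fin 3 → ℂ) → ℂ → ℂ, IsHolFamily r F →
  (∀ t ∈ ball (0 : ℂ) r, Milnor (F · t) 0) → TopRightTrivial r F

/-- corank at most 2 (845, 462) -/
def CR2Stmt : Prop := ∀ (r : ℝ), 0 < r → ∀ F : (Fin 3 → ℂ) → ℂ → ℂ, IsHolFamily r F →
  ∀ μ : ℕ, (∀ t ∈ ball (0 : ℂ) r, Milnor (F · t) μ) → ¬ Corank3 (F · 0) → TopRightTrivial r F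

/-- invariance under biholomorphic germs (401) -/
def LCCompStmt : Prop := ∀ (f g : (Fin 3 → ℂ) → ℂ) (ψ : (Fin 3 → ℂ) → (Fin 3 → ℂ)) (μ : ℕ),
  Hol f → Hol g → f 0 = 0 → Milnor f μ → Reg3 f → Bih ψ → (∀ᶠ x in 𝓝 0, g x = f (ψ x)) →
    LC f → LC g

/-- invariance of the corank (401); the critical point is at `0` because `μ ≠ 0` -/
def CorankCompStmt : Prop := ∀ (f g : (Fin 3 → ℂ) → ℂ) (ψ : (Fin 3 → ℂ) → (Fin 3 → ℂ)), Hol f →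
  Hol g → (∀ i, pd i f 0 = 0) → Bih ψ → (∀ᶠ x in 𝓝 0, g x = f (ψ x)) → Corank3 f → Corank3 g

/-- transfer of the pair `e, e'` to the polynomial germ of large degree (401) -/
def TruncStmt : Prop := ∀ (f : (Fin 3 → ℂ) → ℂ) (μ m A : ℕ) (e e' : (Fin 3 → ℂ) → ℂ), Hol f →
  f 0 = 0 → Milnor f μ → Reg3 f → E1Data f m A e e' → ∀ L : ℕ, ∃ d₁ : ℕ, ∀ d, d₁ ≤ d →
    ∀ (ε : ℝ) (P : PFam d ε ε), GoodFam μ L d ε (fun x t => P.f t x) →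
    (∃ ψ, Bih ψ ∧ ∀ᶠ x in 𝓝 (0 : Fin 3 → ℂ), P.f 0 x = f (ψ x)) →
    ∃ v v' : Q d (m * (d - 4)), E1Data (P.f 0) m A (ev v) (ev v')

/-- BLOCK LC, corank 3 (790) -/
def LCStmt : Prop := ∀ μ L : ℕ, ∃ d₁ : ℕ, ∀ d, d₁ ≤ d → ∀ (ε : ℝ) (P : PFam d ε ε),
  GoodFam μ L d ε (fun x t => P.f t x) → Corank3 (P.f 0) → LC (P.f 0) →
    ∃ r', TopRightTrivial r' fun x t => P.f t x

/-- ENDGAME (740, 137) -/
def EndStmt : Prop := ∀ μ L : ℕ, ∃ d₁ : ℕ, ∀ d, d₁ ≤ d → ∀ (ε : ℝ) (P : PFam d ε ε),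
  GoodFam μ L d ε (fun x t => P.f t x) → ∀ (m A : ℕ) (v v' : Q d (m * (d - 4))),
    E1Data (P.f 0) m A (ev v) (ev v') → ∃ r', TopRightTrivial r' fun x t => P.f t x

/-- BLOCK S1 (39, 265, 283, 723, 217, 863, 845, 412, 98, 475) -/
def S1Out : Prop := ∃ (ρ : ℝ) (C : ℝ≥0), 0 < ρ ∧ ρ < 1 ∧ ∀ (d : ℕ) (R δ : ℝ) (F : PFam d R δ)
  (e : ℕ), S1R F ρ e ∧ S1P2 F C e

/-- `OTP1` on closed discs (verbatim `H293.OTP1c`) -/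
def OTP1c {d : ℕ} {R δ : ℝ} (F : PFam d R δ) (C : ℝ≥0) (e : ℕ) : Prop :=
  ∀ k ∈ KK d e, ∀ s : ℂ, s ≠ 0 → ‖s‖ < δ → ∀ t₀ : ℂ, ∀ r > 0, closedBall t₀ r ⊆ ball 0 R →
    ∀ v : Q d e, ∃ h : ℂ → Q d e, DifferentiableOn ℂ h (ball t₀ r) ∧ h t₀ = v ∧
      ∫⁻ t in ball t₀ r, F.N k t s (h t) ≤ C * ENNReal.ofReal (r ^ 2) * F.N k t₀ s v

/-- BLOCK OT (293, 755, 283, 368, 990, 98) -/
def OTOut : Prop := ∃ C : ℝ≥0, ∀ (d : ℕ) (R δ : ℝ) (F : PFam d R δ) (e : ℕ),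
  OTP1c F C e ∧ OTS F C e

/-- BLOCK RV (379), semicontinuity of the colength of the ideals of integrability.
(Superseded by the weaker `H740.RVNat`, which is what the endgame and block LC use.) -/
def RVOut : Prop := ∀ μ L : ℕ, ∃ d₁ : ℕ, ∀ d, d₁ ≤ d → ∀ (ε : ℝ) (P : PFam d ε ε),
  GoodFam μ L d ε (fun x t => P.f t x) → ∃ ε' : ℝ, 0 < ε' ∧ ∀ t ∈ ball (0 : ℂ) ε',
    ∀ N' N : ℝ, 1 ≤ N' → N' < N →
      Module.Finite ℂ (AnFun 3 ⧸ IK (P.f t) N) ∧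
      finrank ℂ (AnFun 3 ⧸ IK (P.f 0) N') ≤ finrank ℂ (AnFun 3 ⧸ IK (P.f t) N)

/-- BLOCK RV (379), extension of sections from `t = 0`. -/
def ExtOut : Prop := ∀ μ L : ℕ, ∃ d₁ : ℕ, ∀ d, d₁ ≤ d → ∀ (ε : ℝ) (P : PFam d ε ε),
  GoodFam μ L d ε (fun x t => P.f t x) → ∃ ε' : ℝ, 0 < ε' ∧ ∀ (e : ℕ) (k k₁ : ℝ),
    k ∈ KK d e → k₁ ∈ KK d e → k < k₁ → ∀ v : Q d e, InI (P.f 0) k₁ (ev v) →
      ∃ h : ℂ → Q d e, DifferentiableOn ℂ h (ball 0 ε') ∧ h 0 = v ∧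
        ∀ t ∈ ball (0 : ℂ) ε', InI (P.f t) k (ev (h t))

/-- **The full theorem for `n = 3`** (Lê–Ramanujam problem). -/
def FullStmt : Prop := ∀ (r : ℝ), 0 < r → ∀ F : (Fin 3 → ℂ) → ℂ → ℂ, IsHolFamily r F →
  ∀ μ : ℕ, (∀ t ∈ ball (0 : ℂ) r, Milnor (F · t) μ) → TopRightTrivial r F

end Vale.Agent.P298.Main
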