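import Vale.Agent.P298.Main.Iface
import Vale.Agent.P298.StmtGlob

/-!
P298 (helper77): topological right-triviality near every parameter gives topological
right-equivalence, and constant embedded topological type, over the whole disk.
-/

namespace Vale.Agent.P298.Main

open Filter Topology Metric Set Vale.Agent.P298

variable {n : ℕ}

theorem TopRightEquiv.symm {f g : (Fin n → ℂ) → ℂ} (h : TopRightEquiv f g) :
    TopRightEquiv g f := by
  obtain ⟨φ, h1, h2, h3⟩ := h
  refine ⟨φ.symm, ?_, ?_, fun y hy => ?_⟩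
  · have := φ.map_source h1
    rwa [h2] at this
  · have := φ.left_inv h1
    rwa [h2] at this
  · have h4 := φ.map_target hy
    have h5 := h3 _ h4
    rw [φ.right_inv hy] at h5
    exact h5.symm

theorem TopRightEquiv.trans {f g k : (Fin n → ℂ) → ℂ} (h : TopRightEquiv f g)
    (h' : TopRightEquiv g k) : TopRightEquiv f k := by
  obtain ⟨φ, h1, h2, h3⟩ := h
  obtain ⟨ψ, h4, h5, h6⟩ := h'
  refine ⟨φ.trans ψ, ?_, ?_, fun x hx => ?_⟩
  · rw [OpenPartialHomeomorph.trans_source]
    refine ⟨h1, ?_⟩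
    rw [mem_preimage, h2]
    exact h4
  · rw [OpenPartialHomeomorph.coe_trans, Function.comp_apply, h2, h5]
  · rw [OpenPartialHomeomorph.trans_source] at hx
    rw [OpenPartialHomeomorph.coe_trans, Function.comp_apply, h6 _ hx.2, h3 _ hx.1]

theorem TopRightEquiv.sameEmbType {f g : (Fin n → ℂ) → ℂ} (h : TopRightEquiv f g) :
    SameEmbType f g := by
  obtain ⟨φ, h1, h2, h3⟩ := h
  refine ⟨φ, h1, h2, ?_⟩
  ext y
  constructor
  · rintro ⟨x, ⟨hx, hx0⟩, rfl⟩
    refine ⟨φ.map_source hx, ?_⟩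
    show g (φ x) = 0
    rw [h3 x hx]
    exact hx0
  · rintro ⟨hy, hy0⟩
    refine ⟨φ.symm y, ⟨φ.map_target hy, ?_⟩, φ.right_inv hy⟩
    show f (φ.symm y) = 0
    rw [← h3 _ (φ.map_target hy), φ.right_inv hy]
    exact hy0

/-- The slices of a trivialization. -/
theorem topRightEquiv_of_trivial {r : ℝ} {F : (Fin n → ℂ) → ℂ → ℂ} (h : TopRightTrivial r F) :
    ∃ δ : ℝ, 0 < δ ∧ ∀ t ∈ ball (0 : ℂ) δ, TopRightEquiv (F · 0) (F · t) := by
  obtain ⟨δ, hδ, -, Φ, h1, h2, h3⟩ := h
  refine ⟨δ, hδ, fun t ht => ?_⟩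
  have hinv : ∀ q ∈ Φ.target, (Φ.symm q).2 = q.2 := by
    intro q hq
    have h4 := (h3 _ (Φ.map_target hq)).1
    rw [Φ.right_inv hq] at h4
    exact h4.symm
  have hm : Continuous (fun x : Fin n → ℂ => (x, t)) := by fun_prop
  refine ⟨{ toFun := fun x => (Φ (x, t)).1
            invFun := fun y => (Φ.symm (y, t)).1
            source := {x | (x, t) ∈ Φ.source}
            target := {y | (y, t) ∈ Φ.target}
            map_source' := fun x hx => ?_
            map_target' := fun y hy => ?_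
            left_inv' := fun x hx => ?_
            right_inv' := fun y hy => ?_
            open_source := Φ.open_source.preimage hm
            open_target := Φ.open_target.preimage hm
            continuousOn_toFun := ?_
            continuousOn_invFun := ?_ }, ?_, ?_, ?_⟩
  · have e : ((Φ (x, t)).1, t) = Φ (x, t) := Prod.ext rfl (h3 _ hx).1.symm
    show ((Φ (x, t)).1, t) ∈ Φ.target
    rw [e]
    exact Φ.map_source hx
  · have e : ((Φ.symm (y, t)).1, t) = Φ.symm (y, t) := Prod.ext rfl (hinv _ hy).symm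
    show ((Φ.symm (y, t)).1, t) ∈ Φ.source
    rw [e]
    exact Φ.map_target hy
  · have e : ((Φ (x, t)).1, t) = Φ (x, t) := Prod.ext rfl (h3 _ hx).1.symm
    show (Φ.symm ((Φ (x, t)).1, t)).1 = x
    rw [e, Φ.left_inv hx]
  · have e : ((Φ.symm (y, t)).1, t) = Φ.symm (y, t) := Prod.ext rfl (hinv _ hy).symm
    show (Φ ((Φ.symm (y, t)).1, t)).1 = y
    rw [e, Φ.right_inv hy]
  · exact continuous_fst.comp_continuousOn (Φ.continuousOn.comp hm.continuousOn fun x hx => hx)
  · exact continuous_fst.comp_continuousOn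
      (Φ.continuousOn_symm.comp hm.continuousOn fun x hx => hx)
  · exact (h2 t ht).1
  · show (Φ (0, t)).1 = 0
    rw [(h2 t ht).2]
  · intro x hx
    exact (h3 (x, t) hx).2

/-- From the local statement to the whole disk. -/
theorem topRightEquiv_of_full (hfull : FullStmt) {r : ℝ} {F : (Fin 3 → ℂ) → ℂ → ℂ}
    (hF : IsHolFamily r F) {μ : ℕ} (hμ : ∀ t ∈ ball (0 : ℂ) r, Milnor (F · t) μ) :
    ∀ t ∈ ball (0 : ℂ) r, ∀ t' ∈ ball (0 : ℂ) r, TopRightEquiv (F · t) (F · t') := by
  have hloc : ∀ t₀ ∈ ball (0 : ℂ) r, ∀ᶠ t in 𝓝[ball (0 : ℂ) r] t₀,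
      TopRightEquiv (F · t₀) (F · t) := by
    intro t₀ ht₀
    obtain ⟨ρ, hρ, hsub⟩ := Metric.isOpen_iff.1 isOpen_ball t₀ ht₀
    have hmem : ∀ s ∈ ball (0 : ℂ) ρ, t₀ + s ∈ ball (0 : ℂ) r := by
      intro s hs
      apply hsub
      rw [mem_ball, dist_eq_norm]
      rw [mem_ball, dist_zero_right] at hs
      simpa using hs
    have hGF : IsHolFamily ρ (fun x s => F x (t₀ + s)) := by
      intro s hs
      obtain ⟨h2, h3⟩ := hF (t₀ + s) (hmem s hs)
      refine ⟨?_, h3⟩
      have h4 : AnalyticAt ℂ (fun p : (Fin 3 → ℂ) × ℂ => (p.1, t₀ + p.2)) (0, s) :=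
        analyticAt_fst.prod (analyticAt_const.add analyticAt_snd)
      exact AnalyticAt.comp (g := fun p : (Fin 3 → ℂ) × ℂ => F p.1 p.2)
        (f := fun p : (Fin 3 → ℂ) × ℂ => (p.1, t₀ + p.2)) h2 h4
    obtain ⟨δ, hδ, h5⟩ := topRightEquiv_of_trivial
      (hfull ρ hρ _ hGF μ fun s hs => hμ (t₀ + s) (hmem s hs))
    refine eventually_nhdsWithin_of_eventually_nhds ?_
    filter_upwards [ball_mem_nhds t₀ hδ] with t ht
    have hs : t - t₀ ∈ ball (0 : ℂ) δ := by
      rw [mem_ball, dist_zero_right, ← dist_eq_norm]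
      exact ht
    have h6 := h5 _ hs
    simp only [add_zero, add_sub_cancel] at h6
    exact h6
  intro t ht t' ht'
  refine (convex_ball (0 : ℂ) r).isPreconnected.induction₂'
    (fun t t' => TopRightEquiv (F · t) (F · t'))
    (fun z hz => ?_) (fun a b c _ _ _ hab hbc => TopRightEquiv.trans hab hbc) ht ht'
  filter_upwards [hloc z hz] with y hy
  exact ⟨hy, TopRightEquiv.symm hy⟩

end Vale.Agent.P298.Main
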