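import Vale.Agent.P298.Main.Top

/-!
P298, top level (helper77): the case `μ = 0`.
-/

namespace Vale.Agent.P298.Main

open Filter Topology Metric Set Vale.Agent.P298

/-- the local coordinate change straightening a function with `∂ᵢ ≠ 0` -/
theorem exists_chart {G : (Fin 3 → ℂ) × ℂ → ℂ} (hG : AnalyticAt ℂ G 0) {i : Fin 3}
    (hi : fderiv ℂ G 0 (Pi.single i 1, 0) ≠ 0) :
    ∃ e : OpenPartialHomeomorph ((Fin 3 → ℂ) × ℂ) ((Fin 3 → ℂ) × ℂ), 0 ∈ e.source ∧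
      ∀ p, e p = (Function.update p.1 i (G p), p.2) := by
  set g : (Fin 3 → ℂ) × ℂ → (Fin 3 → ℂ) × ℂ := fun p => (Function.update p.1 i (G p), p.2) with hg
  have h1 : AnalyticAt ℂ g 0 := by
    refine AnalyticAt.prod ?_ analyticAt_snd
    rw [analyticAt_pi_iff]
    intro j
    by_cases hj : j = i
    · subst hj
      simpa using hG
    · have : (fun p : (Fin 3 → ℂ) × ℂ => Function.update p.1 i (G p) j) = fun p => p.1 j := by
        funext p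
        rw [Function.update_of_ne hj]
      rw [this]
      exact ((ContinuousLinearMap.proj (R := ℂ) (φ := fun _ : Fin 3 => ℂ) j).comp
        (ContinuousLinearMap.fst ℂ (Fin 3 → ℂ) ℂ)).analyticAt 0
  have h2 : HasStrictFDerivAt g (fderiv ℂ g 0) 0 := h1.hasStrictFDerivAt
  have hGd : HasFDerivAt G (fderiv ℂ G 0) 0 := hG.differentiableAt.hasFDerivAt
  have hgd : HasFDerivAt g (fderiv ℂ g 0) 0 := h2.hasFDerivAt
  have c1 : ∀ v, (fderiv ℂ g 0 v).2 = v.2 := by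
    intro v
    have h3 : HasFDerivAt (fun p : (Fin 3 → ℂ) × ℂ => (g p).2)
      ((ContinuousLinearMap.snd ℂ (Fin 3 → ℂ) ℂ).comp (fderiv ℂ g 0)) 0 :=
      HasFDerivAt.comp (g := fun p : (Fin 3 → ℂ) × ℂ => p.2) (f := g) 0
        (ContinuousLinearMap.snd ℂ (Fin 3 → ℂ) ℂ).hasFDerivAt hgd
    have h4 : HasFDerivAt (fun p : (Fin 3 → ℂ) × ℂ => (g p).2)
      (ContinuousLinearMap.snd ℂ (Fin 3 → ℂ) ℂ) 0 :=
      (ContinuousLinearMap.snd ℂ (Fin 3 → ℂ) ℂ).hasFDerivAt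
    exact congrArg (fun L : ((Fin 3 → ℂ) × ℂ) →L[ℂ] ℂ => L v) (h3.unique h4)
  have c2 : ∀ v, (fderiv ℂ g 0 v).1 i = fderiv ℂ G 0 v := by
    intro v
    have h3 : HasFDerivAt (fun p : (Fin 3 → ℂ) × ℂ => (g p).1 i)
      (((ContinuousLinearMap.proj (R := ℂ) (φ := fun _ : Fin 3 => ℂ) i).comp
        (ContinuousLinearMap.fst ℂ (Fin 3 → ℂ) ℂ)).comp (fderiv ℂ g 0)) 0 :=
      ((ContinuousLinearMap.proj (R := ℂ) (φ := fun _ : Fin 3 => ℂ) i).comp
        (ContinuousLinearMap.fst ℂ (Fin 3 → ℂ) ℂ)).hasFDerivAt.comp 0 hgd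
    have h4 : HasFDerivAt (fun p : (Fin 3 → ℂ) × ℂ => (g p).1 i) (fderiv ℂ G 0) 0 := by
      have : (fun p : (Fin 3 → ℂ) × ℂ => (g p).1 i) = G := by
        funext p; simp [hg]
      rw [this]; exact hGd
    exact congrArg (fun L : ((Fin 3 → ℂ) × ℂ) →L[ℂ] ℂ => L v) (h3.unique h4)
  have c3 : ∀ v, ∀ j, j ≠ i → (fderiv ℂ g 0 v).1 j = v.1 j := by
    intro v j hj
    have h3 : HasFDerivAt (fun p : (Fin 3 → ℂ) × ℂ => (g p).1 j)
      (((ContinuousLinearMap.proj (R := ℂ) (φ := fun _ : Fin 3 => ℂ) j).comp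
        (ContinuousLinearMap.fst ℂ (Fin 3 → ℂ) ℂ)).comp (fderiv ℂ g 0)) 0 :=
      ((ContinuousLinearMap.proj (R := ℂ) (φ := fun _ : Fin 3 => ℂ) j).comp
        (ContinuousLinearMap.fst ℂ (Fin 3 → ℂ) ℂ)).hasFDerivAt.comp 0 hgd
    have h4 : HasFDerivAt (fun p : (Fin 3 → ℂ) × ℂ => (g p).1 j)
      ((ContinuousLinearMap.proj (R := ℂ) (φ := fun _ : Fin 3 => ℂ) j).comp
        (ContinuousLinearMap.fst ℂ (Fin 3 → ℂ) ℂ)) 0 := by
      have : (fun p : (Fin 3 → ℂ) × ℂ => (g p).1 j) = fun p => p.1 j := by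
        funext p; simp [hg, Function.update_of_ne hj]
      rw [this]
      exact ((ContinuousLinearMap.proj (R := ℂ) (φ := fun _ : Fin 3 => ℂ) j).comp
        (ContinuousLinearMap.fst ℂ (Fin 3 → ℂ) ℂ)).hasFDerivAt
    exact congrArg (fun L : ((Fin 3 → ℂ) × ℂ) →L[ℂ] ℂ => L v) (h3.unique h4)
  have hinj : Function.Injective (fderiv ℂ g 0) := by
    rw [injective_iff_map_eq_zero]
    intro v hv
    have d2 : v.2 = 0 := by rw [← c1 v, hv]; rfl
    have d3 : ∀ j, j ≠ i → v.1 j = 0 := fun j hj => by rw [← c3 v j hj, hv]; rfl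
    have d4 : fderiv ℂ G 0 v = 0 := by rw [← c2 v, hv]; rfl
    have d5 : v = v.1 i • ((Pi.single i 1 : Fin 3 → ℂ), (0 : ℂ)) := by
      refine Prod.ext ?_ ?_
      · funext j
        by_cases hj : j = i
        · subst hj; simp
        · simp [d3 j hj, Pi.single_eq_of_ne hj]
      · simp [d2]
    rw [d5, map_smul, smul_eq_mul, mul_eq_zero] at d4
    have d6 : v.1 i = 0 := d4.resolve_right hi
    rw [d5, d6, zero_smul]
  set A : ((Fin 3 → ℂ) × ℂ) ≃L[ℂ] ((Fin 3 → ℂ) × ℂ) :=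
    (LinearEquiv.ofInjectiveEndo (fderiv ℂ g 0 : ((Fin 3 → ℂ) × ℂ) →ₗ[ℂ] ((Fin 3 → ℂ) × ℂ))
      hinj).toContinuousLinearEquiv with hA
  have hA' : (A : ((Fin 3 → ℂ) × ℂ) →L[ℂ] ((Fin 3 → ℂ) × ℂ)) = fderiv ℂ g 0 := by
    ext v <;> rfl
  have h5 : HasStrictFDerivAt g (A : ((Fin 3 → ℂ) × ℂ) →L[ℂ] ((Fin 3 → ℂ) × ℂ)) 0 := by
    rw [hA']; exact h2
  exact ⟨h5.toOpenPartialHomeomorph g, h5.mem_toOpenPartialHomeomorph_source, fun p => rfl⟩

theorem mu0Stmt : Mu0Stmt := by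
  intro r hr F hF hμ
  have h0r : (0 : ℂ) ∈ ball (0 : ℂ) r := mem_ball_self hr
  obtain ⟨b, -, huniq⟩ := hμ 0 h0r
  obtain ⟨c, ⟨a, -, h1⟩, -⟩ := huniq 1 (analyticAt_const (v := (1 : ℂ)))
  have h2 := h1.self_of_nhds
  obtain ⟨i, hi⟩ : ∃ i, pd i (F · 0) 0 ≠ 0 := by
    by_contra hne
    push Not at hne
    simp [hne] at h2
  have hG : AnalyticAt ℂ (fun p : (Fin 3 → ℂ) × ℂ => F p.1 p.2) 0 := (hF 0 h0r).1
  have hG0 : AnalyticAt ℂ (fun p : (Fin 3 → ℂ) × ℂ => F p.1 0) 0 := by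
    have := hol_slice hF h0r
    exact AnalyticAt.comp_of_eq (g := fun x => F x 0) (f := fun p : (Fin 3 → ℂ) × ℂ => p.1)
      this analyticAt_fst rfl
  have e1 : HasFDerivAt (fun x : Fin 3 → ℂ => (x, (0 : ℂ)))
      (ContinuousLinearMap.inl ℂ (Fin 3 → ℂ) ℂ) 0 :=
    (ContinuousLinearMap.inl ℂ (Fin 3 → ℂ) ℂ).hasFDerivAt
  have e2 : HasFDerivAt (F · 0)
      ((fderiv ℂ (fun p : (Fin 3 → ℂ) × ℂ => F p.1 p.2) 0).comp
        (ContinuousLinearMap.inl ℂ (Fin 3 → ℂ) ℂ)) 0 :=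
    HasFDerivAt.comp (g := fun p : (Fin 3 → ℂ) × ℂ => F p.1 p.2)
      (f := fun x : Fin 3 → ℂ => (x, (0 : ℂ))) 0 hG.differentiableAt.hasFDerivAt e1
  have e3 : pd i (F · 0) 0 =
      fderiv ℂ (fun p : (Fin 3 → ℂ) × ℂ => F p.1 p.2) 0 (Pi.single i 1, 0) := by
    rw [pd, e2.fderiv]; rfl
  have e4 : HasFDerivAt (fun p : (Fin 3 → ℂ) × ℂ => F p.1 0)
      ((fderiv ℂ (F · 0) 0).comp (ContinuousLinearMap.fst ℂ (Fin 3 → ℂ) ℂ)) 0 :=
    HasFDerivAt.comp (g := fun x => F x 0) (f := fun p : (Fin 3 → ℂ) × ℂ => p.1) 0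
      (hol_slice hF h0r).differentiableAt.hasFDerivAt
      (ContinuousLinearMap.fst ℂ (Fin 3 → ℂ) ℂ).hasFDerivAt
  have e5 : pd i (F · 0) 0 =
      fderiv ℂ (fun p : (Fin 3 → ℂ) × ℂ => F p.1 0) 0 (Pi.single i 1, 0) := by
    rw [pd, e4.fderiv]; rfl
  obtain ⟨e, he, heq⟩ := exists_chart hG (i := i) (by rw [← e3]; exact hi)
  obtain ⟨e', he', heq'⟩ := exists_chart hG0 (i := i) (by rw [← e5]; exact hi)
  have hup : ∀ c : ℂ, c = 0 → Function.update (0 : Fin 3 → ℂ) i c = 0 := by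
    intro c hc
    rw [hc]
    funext j
    by_cases hj : j = i
    · subst hj; simp
    · simp [Function.update_of_ne hj]
  have hax : Tendsto (fun t : ℂ => ((0 : Fin 3 → ℂ), t)) (𝓝 0) (𝓝 0) :=
    (Continuous.tendsto' (by fun_prop) _ _ rfl)
  have hF00 : F 0 0 = 0 := (hF 0 h0r).2
  have het : (0 : (Fin 3 → ℂ) × ℂ) ∈ e.target := by
    have h3 := e.map_source he
    rw [heq] at h3
    have : (Function.update (0 : (Fin 3 → ℂ) × ℂ).1 i
      (F (0 : (Fin 3 → ℂ) × ℂ).1 (0 : (Fin 3 → ℂ) × ℂ).2), (0 : (Fin 3 → ℂ) × ℂ).2) = 0 := by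
      refine Prod.ext ?_ rfl
      exact hup _ hF00
    rwa [this] at h3
  have hev : ∀ᶠ t in 𝓝 (0 : ℂ), ((0 : Fin 3 → ℂ), t) ∈ e.source ∧
      ((0 : Fin 3 → ℂ), t) ∈ e'.source ∧ ((0 : Fin 3 → ℂ), t) ∈ e.target :=
    hax.eventually ((e.open_source.eventually_mem he).and ((e'.open_source.eventually_mem he').and
      (e.open_target.eventually_mem het)))
  obtain ⟨δ₁, hδ₁, h3⟩ := Metric.eventually_nhds_iff_ball.1 hev
  refine ⟨min δ₁ r, lt_min hδ₁ hr, min_le_right _ _, (e'.trans e.symm).restrOpen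
    {p | p.2 ∈ ball (0 : ℂ) (min δ₁ r)} (isOpen_ball.preimage continuous_snd), ?_, ?_, ?_⟩
  · intro p hp
    exact hp.2
  · intro t ht
    have ht1 : t ∈ ball (0 : ℂ) δ₁ := ball_subset_ball (min_le_left _ _) ht
    have htr : t ∈ ball (0 : ℂ) r := ball_subset_ball (min_le_right _ _) ht
    obtain ⟨k1, k2, k3⟩ := h3 t ht1
    have q1 : e' (0, t) = (0, t) := by
      rw [heq']
      exact Prod.ext (hup _ hF00) rfl
    have q2 : e (0, t) = (0, t) := by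
      rw [heq]
      exact Prod.ext (hup _ (hF t htr).2) rfl
    refine ⟨⟨⟨k2, ?_⟩, ht⟩, ?_⟩
    · change e' (0, t) ∈ e.target
      rw [q1]; exact k3
    · change e.symm (e' (0, t)) = (0, t)
      rw [q1]
      conv_lhs => rw [← q2]
      exact e.left_inv k1
  · intro p hp
    have hp1 : e' p ∈ e.target := hp.1.2
    have q1 : e (e.symm (e' p)) = e' p := e.right_inv hp1
    change (e.symm (e' p)).2 = p.2 ∧ F (e.symm (e' p)).1 p.2 = F p.1 0
    rw [heq, heq'] at q1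
    have q2 : (e.symm (e' p)).2 = p.2 := by
      have := congrArg Prod.snd q1
      rw [heq']
      exact this
    refine ⟨q2, ?_⟩
    have q3 := congrFun (congrArg Prod.fst q1) i
    simp only [Function.update_self] at q3
    rw [← q2]
    rw [heq']
    rw [heq'] at q2
    exact q3

end Vale.Agent.P298.Main
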