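import Vale.Agent.P298.Main.Top
import Vale.Agent.P298.H752.Red3

/-!
P298, top level (helper77): `TopStmt` from helper752's reduction.
-/

namespace Vale.Agent.P298.Main

open Filter Topology Metric Set Vale.Agent.P298

theorem topStmt : TopStmt := by
  intro r hr F hF μ hμ H
  refine H752.top' hr hF hμ fun L => ?_
  obtain ⟨d₁, h1⟩ := H L
  refine ⟨d₁, fun d hd ε P _ hG hS => h1 d hd ε P hG ?_⟩
  obtain ⟨ψ, φ, a1, a2, -, -, -, -, ⟨A, hA⟩, a3⟩ := hS.germ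
  refine ⟨ψ, ⟨a1, a2, ?_⟩, a3.mono fun x hx => hx.symm⟩
  rw [hA.fderiv]
  change LinearMap.det ((A : (Fin 3 → ℂ) →L[ℂ] (Fin 3 → ℂ)) : (Fin 3 → ℂ) →ₗ[ℂ] (Fin 3 → ℂ)) ≠ 0
  have : IsUnit (LinearMap.det ((A.toLinearEquiv : (Fin 3 → ℂ) ≃ₗ[ℂ] (Fin 3 → ℂ)) :
      (Fin 3 → ℂ) →ₗ[ℂ] (Fin 3 → ℂ))) := LinearEquiv.isUnit_det' _
  exact this.ne_zero

end Vale.Agent.P298.Main
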