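import Vale.Agent.P298.Main.Iface
import Vale.Agent.P298.H967.Jac

/-!
P298, top level (helper77): the final theorem from the outputs of the blocks.
-/

namespace Vale.Agent.P298.Main

open Filter Topology Metric Set Vale.Agent.P298
open Vale.Agent.P298.H379 (Q ev PFam InI KK S1R S1P2 OTP1 OTS)
open Vale.Agent.P298.H967 (IK)
open Vale.Agent.P298.H752 (GoodFam)

theorem pd_zero_of_milnor {f : (Fin 3 → ℂ) → ℂ} {μ : ℕ} (h : Milnor f μ) (hμ : μ ≠ 0)
    (hf : Hol f) : ∀ i, pd i f 0 = 0 := by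
  by_contra hne
  push Not at hne
  obtain ⟨i, hi⟩ := hne
  obtain ⟨b, hb, huniq⟩ := h
  have han : ∀ j, Hol (pd j f) := fun j => H967.hol_pd3 hf j
  have key : ∀ g, Hol g → InIdeal (fun i => pd i f) g := by
    intro g hg
    refine ⟨fun j x => if j = i then g x / pd i f x else 0, fun j => ?_, ?_⟩
    · by_cases hj : j = i
      · subst hj
        simp only [if_true]
        exact hg.div (han j) hi
      · simp only [hj, if_false]
        exact analyticAt_const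
    · have h1 : ∀ᶠ x in 𝓝 (0 : Fin 3 → ℂ), pd i f x ≠ 0 :=
        (han i).continuousAt.eventually_ne hi
      filter_upwards [h1] with x hx
      rw [Finset.sum_eq_single i]
      · simp only [if_true]
        field_simp
      · intro j _ hj
        simp only [hj, if_false, zero_mul]
      · simp
  obtain ⟨c, _, hc⟩ := huniq 0 analyticAt_const
  have e1 := hc 0 (key _ (by
    simpa [Hol] using (analyticAt_const (v := (0 : ℂ)) : AnalyticAt ℂ (fun _ : Fin 3 → ℂ => (0 : ℂ)) 0)))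
  have e2 := hc 1 (key _ (by
    have : AnalyticAt ℂ (fun x : Fin 3 → ℂ => (0 : ℂ) - ∑ i, b i x) 0 := by
      refine analyticAt_const.sub ?_
      exact Finset.analyticAt_fun_sum _ fun i _ => hb i
    simpa [Hol] using this))
  have h01 : (0 : Fin μ → ℂ) = 1 := e1.trans e2.symm
  exact zero_ne_one (congrFun h01 ⟨0, Nat.pos_of_ne_zero hμ⟩)

theorem hol_slice {F : (Fin 3 → ℂ) → ℂ → ℂ} {r : ℝ} (hF : IsHolFamily r F) {t : ℂ}
    (ht : t ∈ ball (0 : ℂ) r) : Hol (F · t) := by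
  have h1 := (hF t ht).1
  have h2 : AnalyticAt ℂ (fun x : Fin 3 → ℂ => (x, t)) 0 :=
    AnalyticAt.prod analyticAt_id analyticAt_const
  exact AnalyticAt.comp_of_eq (g := fun p : (Fin 3 → ℂ) × ℂ => F p.1 p.2)
    (f := fun x : Fin 3 → ℂ => (x, t)) h1 h2 rfl

theorem full_of (hReg : RegStmt) (hTop : TopStmt) (h0 : Mu0Stmt) (hCR : CR2Stmt)
    (hE1 : E1Stmt) (hLCc : LCCompStmt) (hCc : CorankCompStmt) (hTr : TruncStmt) (hLC : LCStmt)
    (hEnd : EndStmt) : FullStmt := by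
  intro r₀ hr₀ F₀ hF₀ μ hμ₀
  obtain ⟨r, F, hr, hF, hμ, hR, hback⟩ := hReg r₀ hr₀ F₀ hF₀ μ hμ₀
  refine hback ?_
  by_cases hμ0 : μ = 0
  · subst hμ0
    exact h0 r hr F hF hμ
  by_cases hc : Corank3 (F · 0)
  swap
  · exact hCR r hr F hF μ hμ hc
  have h0r : (0 : ℂ) ∈ ball (0 : ℂ) r := mem_ball_self hr
  have hf : Hol (F · 0) := hol_slice hF h0r
  have hf0 : F 0 0 = 0 := (hF 0 h0r).2
  have hM : Milnor (F · 0) μ := hμ 0 h0r
  by_cases hl : LC (F · 0)
  · refine hTop r hr F hF μ hμ fun L => ?_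
    obtain ⟨d₁, h1⟩ := hLC μ L
    refine ⟨d₁, fun d hd ε P hG hψ => ?_⟩
    obtain ⟨ψ, hψ, hP⟩ := hψ
    have hPh : Hol (P.f 0) := hol_slice hG.hol (mem_ball_self hG.pos)
    exact h1 d hd ε P hG (hCc _ _ ψ hf hPh (pd_zero_of_milnor hM hμ0 hf) hψ hP hc)
      (hLCc _ _ ψ μ hf hPh hf0 hM hR hψ hP hl)
  · obtain ⟨m, A, e, e', hE⟩ := hE1 _ μ hf hf0 hM hR hl
    refine hTop r hr F hF μ hμ fun L => ?_
    obtain ⟨d₁, h1⟩ := hTr _ μ m A e e' hf hf0 hM hR hE L
    obtain ⟨d₂, h2⟩ := hEnd μ L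
    refine ⟨max d₁ d₂, fun d hd ε P hG hψ => ?_⟩
    obtain ⟨v, v', hv⟩ := h1 d ((le_max_left _ _).trans hd) ε P hG hψ
    exact h2 d ((le_max_right _ _).trans hd) ε P hG m A v v' hv

end Vale.Agent.P298.Main
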