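import Vale.Agent.P298.Main.Red
import Vale.Agent.P298.H845.Out
import Vale.Agent.P298.H309.N2Full
import Vale.Agent.P298.H740.End
import Vale.Agent.P298.H401.Out

/-!
P298, top level (helper77): wiring of the landed blocks.
-/

namespace Vale.Agent.P298.Main

open Vale.Agent.P298

theorem cr2Stmt : CR2Stmt := H845.cr2Stmt H309.n2Asm

theorem endStmt (hLow : H740.LowOut) (hB : H740.LemBOut) (hRV : H740.RVKK) (hExt : ExtOut) :
    EndStmt := by
  intro μ L
  obtain ⟨d₁, h⟩ := H740.endStmt hLow hB (H740.rvNat_of_KK hRV) hExt μ L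
  refine ⟨d₁, fun d hd ε P hG m A v v' hE => ?_⟩
  exact h d hd ε P hG m A v v' hE.m_two hE

/-- State of the assembly: what is still open. -/
theorem full_of_open (hE1 : E1Stmt) (hLC : LCStmt) (hLow : H740.LowOut) (hB : H740.LemBOut)
    (hRV : H740.RVKK) (hExt : ExtOut) : FullStmt :=
  full_of H401.regStmt topStmt H845.mu0Stmt cr2Stmt hE1 H401.lcCompStmt H401.corankCompStmt
    H401.truncStmt hLC (endStmt hLow hB hRV hExt)

end Vale.Agent.P298.Main
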